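import Vale.Agent.P227.Defs

namespace Vale.Agent.P227

open MeasureTheory Set
open scoped ENNReal Pointwise Topology

variable {ι : Type} [Fintype ι] {K L : Set (EuclideanSpace ℝ ι)} {s : ℝ}

theorem SymBody.zero_mem_interior (h : SymBody K) : (0 : EuclideanSpace ℝ ι) ∈ interior K := by
  obtain ⟨x, hx⟩ := h.interior_nonempty
  have hK : -K = K := by
    ext y
    constructor
    · intro hy
      have := h.symm _ hy
      simpa using this
    · intro hy
      exact h.symm y hy
  have hx' : -x ∈ interior K := by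
    have h1 : -x ∈ -interior K := by simpa using hx
    have h2 : -interior K = interior (-K) := by
      have := (Homeomorph.neg (EuclideanSpace ℝ ι)).preimage_interior K
      simpa using this
    rw [h2, hK] at h1
    exact h1
  have := h.convex.interior hx hx' (by norm_num : (0:ℝ) ≤ 1/2) (by norm_num : (0:ℝ) ≤ 1/2)
    (by norm_num)
  simpa using this

theorem SymBody.nhds (h : SymBody K) : K ∈ 𝓝 (0 : EuclideanSpace ℝ ι) :=
  mem_interior_iff_mem_nhds.1 h.zero_mem_interior

theorem SymBody.zero_mem (h : SymBody K) : (0 : EuclideanSpace ℝ ι) ∈ K :=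
  interior_subset h.zero_mem_interior

theorem SymBody.isClosed (h : SymBody K) : IsClosed K := h.compact.isClosed

theorem SymBody.bdd (h : SymBody K) (u : EuclideanSpace ℝ ι) :
    BddAbove ((fun x => inner ℝ x u) '' K) := by
  apply IsCompact.bddAbove
  apply h.compact.image
  fun_prop

theorem SymBody.le_supp (h : SymBody K) {x : EuclideanSpace ℝ ι} (hx : x ∈ K)
    (u : EuclideanSpace ℝ ι) : inner ℝ x u ≤ supp K u :=
  le_csSup (h.bdd u) ⟨x, hx, rfl⟩

theorem SymBody.exists_supp (h : SymBody K) (u : EuclideanSpace ℝ ι) :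
    ∃ x ∈ K, inner ℝ x u = supp K u := by
  have hc : IsCompact ((fun x : EuclideanSpace ℝ ι => inner ℝ x u) '' K) := by
    apply h.compact.image
    fun_prop
  have hne : ((fun x : EuclideanSpace ℝ ι => inner ℝ x u) '' K).Nonempty :=
    ⟨_, 0, h.zero_mem, rfl⟩
  obtain ⟨x, hx, hxu⟩ := hc.sSup_mem hne
  exact ⟨x, hx, hxu⟩

theorem SymBody.supp_nonneg (h : SymBody K) (u : EuclideanSpace ℝ ι) : 0 ≤ supp K u := by
  have := h.le_supp h.zero_mem u
  simpa using this

theorem SymBody.supp_smul (h : SymBody K) {c : ℝ} (hc : 0 ≤ c) (u : EuclideanSpace ℝ ι) :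
    supp K (c • u) = c * supp K u := by
  apply le_antisymm
  · obtain ⟨x, hx, hxu⟩ := h.exists_supp (c • u)
    rw [← hxu, inner_smul_right]
    exact mul_le_mul_of_nonneg_left (h.le_supp hx u) hc
  · obtain ⟨x, hx, hxu⟩ := h.exists_supp u
    rw [← hxu, ← inner_smul_right]
    exact h.le_supp hx _

theorem SymBody.exists_ball (h : SymBody K) :
    ∃ r : ℝ, 0 < r ∧ ∀ u, ‖u‖ = 1 → r ≤ supp K u := by
  obtain ⟨r, hr, hrK⟩ := Metric.nhds_basis_closedBall.mem_iff.1 h.nhds
  refine ⟨r, hr, fun u hu => ?_⟩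
  have h1 : r • u ∈ K := hrK (by simp [norm_smul, hu, abs_of_pos hr])
  have h2 := h.le_supp h1 u
  rw [inner_smul_left, real_inner_self_eq_norm_sq, hu] at h2
  simpa using h2

theorem SymBody.exists_bound (h : SymBody K) :
    ∃ R : ℝ, 0 < R ∧ ∀ u, ‖u‖ = 1 → supp K u ≤ R := by
  obtain ⟨R, hR, hRK⟩ := h.compact.isBounded.exists_pos_norm_le
  refine ⟨R, hR, fun u hu => ?_⟩
  obtain ⟨x, hx, hxu⟩ := h.exists_supp u
  rw [← hxu]
  calc inner ℝ x u ≤ ‖x‖ * ‖u‖ := real_inner_le_norm x u
    _ ≤ R := by rw [hu, mul_one]; exact hRK x hx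

/-- membership in the logarithmic combination can be tested on all vectors -/
theorem mem_logComb_iff (hK : SymBody K) (hL : SymBody L) (hs0 : 0 ≤ s) (hs1 : s ≤ 1)
    (x : EuclideanSpace ℝ ι) :
    x ∈ logComb s K L ↔ ∀ u, inner ℝ x u ≤ supp K u ^ (1 - s) * supp L u ^ s := by
  constructor
  · intro hx u
    by_cases hu : u = 0
    · subst hu
      simp only [inner_zero_right]
      exact mul_nonneg (Real.rpow_nonneg (hK.supp_nonneg _) _) (Real.rpow_nonneg (hL.supp_nonneg _) _)
    · have hn : 0 < ‖u‖ := norm_pos_iff.2 hu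
      have h1 := hx (‖u‖⁻¹ • u) (by rw [norm_smul, norm_inv, norm_norm, inv_mul_cancel₀ hn.ne'])
      have hi : 0 ≤ ‖u‖⁻¹ := inv_nonneg.2 hn.le
      rw [hK.supp_smul hi, hL.supp_smul hi, inner_smul_right,
        Real.mul_rpow hi (hK.supp_nonneg _), Real.mul_rpow hi (hL.supp_nonneg _)] at h1
      have h2 : (‖u‖⁻¹) ^ (1 - s) * (‖u‖⁻¹) ^ s = ‖u‖⁻¹ := by
        rw [← Real.rpow_add (inv_pos.2 hn)]
        simp
      have h3 : ‖u‖⁻¹ * inner ℝ x u ≤ ‖u‖⁻¹ * (supp K u ^ (1 - s) * supp L u ^ s) := by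
        calc _ ≤ _ := h1
          _ = ((‖u‖⁻¹) ^ (1 - s) * (‖u‖⁻¹) ^ s) * (supp K u ^ (1 - s) * supp L u ^ s) := by ring
          _ = _ := by rw [h2]
      exact le_of_mul_le_mul_left h3 (inv_pos.2 hn)
  · intro hx u _
    exact hx u

theorem supp_neg (h : SymBody K) (u : EuclideanSpace ℝ ι) : supp K (-u) = supp K u := by
  apply le_antisymm
  · obtain ⟨x, hx, hxu⟩ := h.exists_supp (-u)
    rw [← hxu, inner_neg_right, ← inner_neg_left]
    exact h.le_supp (h.symm x hx) u
  · obtain ⟨x, hx, hxu⟩ := h.exists_supp u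
    rw [← hxu]
    have := h.le_supp (h.symm x hx) (-u)
    simpa using this

theorem symBody_logComb (hK : SymBody K) (hL : SymBody L) (hs0 : 0 ≤ s) (hs1 : s ≤ 1) :
    SymBody (logComb s K L) := by
  obtain ⟨R, hR, hRK⟩ := hK.exists_bound
  obtain ⟨R', hR', hRL⟩ := hL.exists_bound
  obtain ⟨r, hr, hrK⟩ := hK.exists_ball
  obtain ⟨r', hr', hrL⟩ := hL.exists_ball
  have hcl : IsClosed (logComb s K L) := by
    have : logComb s K L = ⋂ u : EuclideanSpace ℝ ι, ⋂ _ : ‖u‖ = 1,
        {x | inner ℝ x u ≤ supp K u ^ (1 - s) * supp L u ^ s} := by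
      ext x; simp [logComb]
    rw [this]
    refine isClosed_iInter fun u => isClosed_iInter fun _ => ?_
    exact isClosed_le (by fun_prop) continuous_const
  have hbd : logComb s K L ⊆ Metric.closedBall 0 (R ^ (1 - s) * R' ^ s) := by
    intro x hx
    rw [mem_closedBall_zero_iff]
    by_cases h0 : x = 0
    · subst h0
      simp only [norm_zero]
      positivity
    · have hn : 0 < ‖x‖ := norm_pos_iff.2 h0
      have hu : ‖(‖x‖⁻¹ • x)‖ = 1 := by
        rw [norm_smul, norm_inv, norm_norm, inv_mul_cancel₀ hn.ne']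
      have h1 := hx _ hu
      rw [inner_smul_right, real_inner_self_eq_norm_sq] at h1
      have h2 : ‖x‖⁻¹ * ‖x‖ ^ 2 = ‖x‖ := by field_simp
      rw [h2] at h1
      refine h1.trans ?_
      exact mul_le_mul (Real.rpow_le_rpow (hK.supp_nonneg _) (hRK _ hu) (by linarith))
        (Real.rpow_le_rpow (hL.supp_nonneg _) (hRL _ hu) hs0)
        (Real.rpow_nonneg (hL.supp_nonneg _) _) (Real.rpow_nonneg hR.le _)
  refine ⟨?_, ?_, ?_, ?_⟩
  · exact Metric.isCompact_of_isClosed_isBounded hcl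
      (Metric.isBounded_closedBall.subset hbd)
  · intro x hx y hy a b ha hb hab u hu
    rw [inner_add_left, inner_smul_left, inner_smul_left]
    simp only [conj_trivial]
    calc a * inner ℝ x u + b * inner ℝ y u
        ≤ a * (supp K u ^ (1 - s) * supp L u ^ s) + b * (supp K u ^ (1 - s) * supp L u ^ s) :=
          add_le_add (mul_le_mul_of_nonneg_left (hx u hu) ha)
            (mul_le_mul_of_nonneg_left (hy u hu) hb)
      _ = (a + b) * (supp K u ^ (1 - s) * supp L u ^ s) := by ring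
      _ = _ := by rw [hab, one_mul]
  · refine ⟨0, mem_interior_iff_mem_nhds.2 ?_⟩
    refine Filter.mem_of_superset (Metric.closedBall_mem_nhds 0
      (mul_pos (Real.rpow_pos_of_pos hr (1 - s)) (Real.rpow_pos_of_pos hr' s))) ?_
    intro x hx u hu
    rw [mem_closedBall_zero_iff] at hx
    calc inner ℝ x u ≤ ‖x‖ * ‖u‖ := real_inner_le_norm x u
      _ ≤ r ^ (1 - s) * r' ^ s := by rw [hu, mul_one]; exact hx
      _ ≤ _ := mul_le_mul (Real.rpow_le_rpow hr.le (hrK _ hu) (by linarith))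
        (Real.rpow_le_rpow hr'.le (hrL _ hu) hs0)
        (Real.rpow_nonneg hr'.le _) (Real.rpow_nonneg (hK.supp_nonneg _) _)
  · intro x hx u hu
    have := hx (-u) (by rwa [norm_neg])
    rw [supp_neg hK, supp_neg hL] at this
    simpa using this

/-! gauge facts -/

theorem SymBody.gauge_le_one (h : SymBody K) (x : EuclideanSpace ℝ ι) :
    gauge K x ≤ 1 ↔ x ∈ K := by
  rw [gauge_le_one_iff_mem_closure h.convex h.nhds, h.isClosed.closure_eq]

theorem SymBody.continuous_gauge (h : SymBody K) : Continuous (gauge K) :=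
  _root_.continuous_gauge h.convex h.nhds

theorem SymBody.gauge_pos (h : SymBody K) {x : EuclideanSpace ℝ ι} : 0 < gauge K x ↔ x ≠ 0 := by
  apply _root_.gauge_pos (absorbent_nhds_zero h.nhds)
  rw [NormedSpace.isVonNBounded_iff]
  exact h.compact.isBounded

theorem SymBody.gauge_neg (h : SymBody K) (x : EuclideanSpace ℝ ι) :
    gauge K (-x) = gauge K x :=
  _root_.gauge_neg h.symm x

/-- the support function is attained on the boundary -/
theorem SymBody.exists_supp_gauge (h : SymBody K) (u : EuclideanSpace ℝ ι) [Nonempty ι] :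
    ∃ x, gauge K x = 1 ∧ inner ℝ x u = supp K u := by
  by_cases h0 : supp K u = 0
  · have hu : u = 0 := by
      by_contra hu
      have hn : 0 < ‖u‖ := norm_pos_iff.2 hu
      obtain ⟨r, hr, hrK⟩ := h.exists_ball
      have h1 := hrK (‖u‖⁻¹ • u) (by rw [norm_smul, norm_inv, norm_norm, inv_mul_cancel₀ hn.ne'])
      rw [h.supp_smul (inv_nonneg.2 hn.le), h0, mul_zero] at h1
      linarith
    obtain ⟨y, hy⟩ := exists_ne (0 : EuclideanSpace ℝ ι)
    have hy' := h.gauge_pos.2 hy
    refine ⟨(gauge K y)⁻¹ • y, ?_, ?_⟩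
    · rw [gauge_smul_of_nonneg (inv_nonneg.2 hy'.le), smul_eq_mul, inv_mul_cancel₀ hy'.ne']
    · rw [h0, hu, inner_zero_right]
  · have hpos : 0 < supp K u := lt_of_le_of_ne (h.supp_nonneg u) (Ne.symm h0)
    obtain ⟨x, hx, hxu⟩ := h.exists_supp u
    refine ⟨x, ?_, hxu⟩
    apply le_antisymm ((h.gauge_le_one x).2 hx)
    by_contra hlt
    push Not at hlt
    have hx0 : x ≠ 0 := by
      rintro rfl
      simp at hxu
      exact h0 hxu.symm
    have hgp := h.gauge_pos.2 hx0
    have h1 : (gauge K x)⁻¹ • x ∈ K := by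
      rw [← h.gauge_le_one, gauge_smul_of_nonneg (inv_nonneg.2 hgp.le), smul_eq_mul,
        inv_mul_cancel₀ hgp.ne']
    have h2 := h.le_supp h1 u
    rw [inner_smul_left, hxu] at h2
    simp only [conj_trivial] at h2
    have h3 : 1 < (gauge K x)⁻¹ := (one_lt_inv₀ hgp).2 hlt
    nlinarith

end Vale.Agent.P227
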