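import Mathlib

/-!
# P227: definitions for the logarithmic Brunn-Minkowski inequality
-/

namespace Vale.Agent.P227

open MeasureTheory Set
open scoped ENNReal Pointwise Topology

variable {ι : Type} [Fintype ι]

/-- The support function `h_K(u) = sup_{x ∈ K} ⟨x,u⟩`. -/
noncomputable def supp (K : Set (EuclideanSpace ℝ ι)) (u : EuclideanSpace ℝ ι) : ℝ :=
  sSup ((fun x => inner ℝ x u) '' K)

/-- The logarithmic combination `(1-s)K +_0 sL`: the Wulff body of `h_K^{1-s} h_L^s`. -/
def logComb (s : ℝ) (K L : Set (EuclideanSpace ℝ ι)) : Set (EuclideanSpace ℝ ι) :=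
  {x | ∀ u : EuclideanSpace ℝ ι, ‖u‖ = 1 → inner ℝ x u ≤ supp K u ^ (1 - s) * supp L u ^ s}

/-- An origin-symmetric convex body. -/
structure SymBody (K : Set (EuclideanSpace ℝ ι)) : Prop where
  compact : IsCompact K
  convex : Convex ℝ K
  interior_nonempty : (interior K).Nonempty
  symm : ∀ x ∈ K, -x ∈ K

/-- The logarithmic Brunn-Minkowski inequality for the pair `K, L` and the parameter `s`:
`|(1-s)K +_0 sL| ≥ |K|^{1-s} |L|^s`. -/
def LogBM (s : ℝ) (K L : Set (EuclideanSpace ℝ ι)) : Prop :=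
  volume K ^ (1 - s) * volume L ^ s ≤ volume (logComb s K L)

/-- The block `b` of the vector `x ∈ ℝ^n`, for the partition of the coordinates given by `π`. -/
noncomputable def blk {n m : ℕ} (π : Fin n → Fin m) (b : Fin m)
    (x : EuclideanSpace ℝ (Fin n)) : EuclideanSpace ℝ {j // π j = b} :=
  WithLp.toLp 2 (fun j => x j.1)

end Vale.Agent.P227
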