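import Vale.Agent.P227.Volume

namespace Vale.Agent.P227

open MeasureTheory Set
open scoped ENNReal Pointwise Topology

variable {n m : ℕ} {π : Fin n → Fin m}

theorem inner_glue (y : ∀ b : Fin m, EuclideanSpace ℝ {j // π j = b})
    (u : EuclideanSpace ℝ (Fin n)) :
    inner ℝ (glue π y) u = ∑ b, inner ℝ (y b) (blk π b u) := by
  simp only [PiLp.inner_apply]
  rw [← Fintype.sum_fiberwise π]
  refine Finset.sum_congr rfl fun b _ => Finset.sum_congr rfl fun j _ => ?_
  obtain ⟨j, hj⟩ := j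
  subst hj
  rfl

/-- lower bound of the support function of a composed body -/
theorem supp_compose (hπ : Function.Surjective π)
    {C : ∀ b : Fin m, Set (EuclideanSpace ℝ {j // π j = b})} (hC : ∀ b, SymBody (C b))
    {U : Set (Fin m → ℝ)} {K : Set (EuclideanSpace ℝ (Fin n))} (hK : SymBody K)
    (hKU : ∀ x, x ∈ K ↔ (fun b => gauge (C b) (blk π b x)) ∈ U)
    {r : Fin m → ℝ} (hr : ∀ b, 0 ≤ r b) (hrU : r ∈ U) (u : EuclideanSpace ℝ (Fin n)) :
    ∑ b, r b * supp (C b) (blk π b u) ≤ supp K u := by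
  have hne : ∀ b, Nonempty {j // π j = b} := nonempty_fiber hπ
  have h1 : ∀ b, ∃ x, gauge (C b) x = 1 ∧ inner ℝ x (blk π b u) = supp (C b) (blk π b u) := by
    intro b
    have := hne b
    exact (hC b).exists_supp_gauge _
  choose x hx1 hx2 using h1
  have hmem : glue π (fun b => r b • x b) ∈ K := by
    rw [hKU]
    have : (fun b => gauge (C b) (blk π b (glue π fun b => r b • x b))) = r := by
      funext b
      rw [blk_glue, gauge_smul_of_nonneg (hr b), hx1, smul_eq_mul, mul_one]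
    rw [this]
    exact hrU
  have h2 := hK.le_supp hmem u
  rw [inner_glue] at h2
  refine le_trans (le_of_eq ?_) h2
  refine Finset.sum_congr rfl fun b _ => ?_
  rw [inner_smul_left, hx2]
  simp

theorem holder_sum {s : ℝ} (hs0 : 0 < s) (hs1 : s < 1) {f g : Fin m → ℝ} (hf : ∀ b, 0 ≤ f b)
    (hg : ∀ b, 0 ≤ g b) :
    ∑ b, f b ^ (1 - s) * g b ^ s ≤ (∑ b, f b) ^ (1 - s) * (∑ b, g b) ^ s := by
  have h1s : 0 < 1 - s := by linarith
  have hpq : (1 / (1 - s)).HolderConjugate (1 / s) := by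
    rw [Real.holderConjugate_iff]
    constructor
    · rw [lt_div_iff₀ h1s]; linarith
    · simp
  have := Real.inner_le_Lp_mul_Lq_of_nonneg Finset.univ hpq
    (f := fun b => f b ^ (1 - s)) (g := fun b => g b ^ s)
    (fun b _ => Real.rpow_nonneg (hf b) _) (fun b _ => Real.rpow_nonneg (hg b) _)
  have e1 : ∀ b, (f b ^ (1 - s)) ^ (1 / (1 - s)) = f b := by
    intro b
    rw [← Real.rpow_mul (hf b), mul_one_div_cancel h1s.ne', Real.rpow_one]
  have e2 : ∀ b, (g b ^ s) ^ (1 / s) = g b := by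
    intro b
    rw [← Real.rpow_mul (hg b), mul_one_div_cancel hs0.ne', Real.rpow_one]
  simp only [e1, e2, one_div_one_div] at this
  exact this

/-- the set of logarithmic radii guaranteed inside the logarithmic combination -/
def goodSet (π : Fin n → Fin m) (M : ∀ b : Fin m, Set (EuclideanSpace ℝ {j // π j = b}))
    (W : Set (EuclideanSpace ℝ (Fin n))) : Set (Fin m → ℝ) :=
  {t | ∀ y : ∀ b : Fin m, EuclideanSpace ℝ {j // π j = b}, (∀ b, y b ∈ M b) →
    glue π (fun b => Real.exp (t b) • y b) ∈ W}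

theorem isClosed_goodSet {M : ∀ b : Fin m, Set (EuclideanSpace ℝ {j // π j = b})}
    {W : Set (EuclideanSpace ℝ (Fin n))} (hW : IsClosed W) : IsClosed (goodSet π M W) := by
  have : goodSet π M W = ⋂ y : ∀ b : Fin m, EuclideanSpace ℝ {j // π j = b},
      ⋂ _ : (∀ b, y b ∈ M b), {t | glue π (fun b => Real.exp (t b) • y b) ∈ W} := by
    ext t; simp [goodSet]
  rw [this]
  refine isClosed_iInter fun y => isClosed_iInter fun _ => ?_
  apply hW.preimage
  apply (continuous_glue π).comp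
  fun_prop

theorem goodSet_mem (hπ : Function.Surjective π)
    {C D : ∀ b : Fin m, Set (EuclideanSpace ℝ {j // π j = b})} (hC : ∀ b, SymBody (C b))
    (hD : ∀ b, SymBody (D b)) {s : ℝ} (hs0 : 0 < s) (hs1 : s < 1)
    {U V : Set (Fin m → ℝ)} {K L : Set (EuclideanSpace ℝ (Fin n))} (hK : SymBody K)
    (hL : SymBody L)
    (hKU : ∀ x, x ∈ K ↔ (fun b => gauge (C b) (blk π b x)) ∈ U)
    (hLV : ∀ x, x ∈ L ↔ (fun b => gauge (D b) (blk π b x)) ∈ V)
    {p q : Fin m → ℝ} (hp : (fun b => Real.exp (p b)) ∈ U) (hq : (fun b => Real.exp (q b)) ∈ V) :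
    (1 - s) • p + s • q ∈ goodSet π (fun b => logComb s (C b) (D b)) (logComb s K L) := by
  intro y hy u _
  rw [inner_glue]
  have h1 : ∀ b, inner ℝ (Real.exp (((1 - s) • p + s • q) b) • y b) (blk π b u) ≤
      (Real.exp (p b) * supp (C b) (blk π b u)) ^ (1 - s) *
        (Real.exp (q b) * supp (D b) (blk π b u)) ^ s := by
    intro b
    have hyb := (mem_logComb_iff (hC b) (hD b) hs0.le hs1.le (y b)).1 (hy b) (blk π b u)
    rw [inner_smul_left, Real.mul_rpow (Real.exp_pos _).le ((hC b).supp_nonneg _),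
      Real.mul_rpow (Real.exp_pos _).le ((hD b).supp_nonneg _)]
    simp only [conj_trivial, Pi.add_apply, Pi.smul_apply, smul_eq_mul]
    have he : Real.exp ((1 - s) * p b + s * q b) = Real.exp (p b) ^ (1 - s) * Real.exp (q b) ^ s := by
      rw [Real.exp_add, ← Real.exp_mul, ← Real.exp_mul, mul_comm (p b), mul_comm (q b)]
    rw [he]
    have hpos : 0 ≤ Real.exp (p b) ^ (1 - s) * Real.exp (q b) ^ s :=
      mul_nonneg (Real.rpow_nonneg (Real.exp_pos _).le _) (Real.rpow_nonneg (Real.exp_pos _).le _)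
    calc Real.exp (p b) ^ (1 - s) * Real.exp (q b) ^ s * inner ℝ (y b) (blk π b u)
        ≤ Real.exp (p b) ^ (1 - s) * Real.exp (q b) ^ s *
          (supp (C b) (blk π b u) ^ (1 - s) * supp (D b) (blk π b u) ^ s) :=
          mul_le_mul_of_nonneg_left hyb hpos
      _ = _ := by ring
  calc ∑ b, inner ℝ (Real.exp (((1 - s) • p + s • q) b) • y b) (blk π b u)
      ≤ ∑ b, (Real.exp (p b) * supp (C b) (blk π b u)) ^ (1 - s) *
        (Real.exp (q b) * supp (D b) (blk π b u)) ^ s := Finset.sum_le_sum fun b _ => h1 b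
    _ ≤ (∑ b, Real.exp (p b) * supp (C b) (blk π b u)) ^ (1 - s) *
        (∑ b, Real.exp (q b) * supp (D b) (blk π b u)) ^ s :=
        holder_sum hs0 hs1 (fun b => mul_nonneg (Real.exp_pos _).le ((hC b).supp_nonneg _))
          (fun b => mul_nonneg (Real.exp_pos _).le ((hD b).supp_nonneg _))
    _ ≤ supp K u ^ (1 - s) * supp L u ^ s := by
        have hA := supp_compose hπ hC hK hKU (fun b => (Real.exp_pos (p b)).le) hp u
        have hB := supp_compose hπ hD hL hLV (fun b => (Real.exp_pos (q b)).le) hq u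
        have hA0 : 0 ≤ ∑ b, Real.exp (p b) * supp (C b) (blk π b u) :=
          Finset.sum_nonneg fun b _ => mul_nonneg (Real.exp_pos _).le ((hC b).supp_nonneg _)
        have hB0 : 0 ≤ ∑ b, Real.exp (q b) * supp (D b) (blk π b u) :=
          Finset.sum_nonneg fun b _ => mul_nonneg (Real.exp_pos _).le ((hD b).supp_nonneg _)
        exact mul_le_mul (Real.rpow_le_rpow hA0 hA (by linarith)) (Real.rpow_le_rpow hB0 hB hs0.le)
          (Real.rpow_nonneg hB0 _) (Real.rpow_nonneg (hK.supp_nonneg _) _)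

end Vale.Agent.P227
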