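import Vale.Agent.P227.Main

namespace Vale.Agent.P227

open MeasureTheory Set Filter
open scoped ENNReal NNReal Pointwise Topology

section
variable {ι : Type} [Fintype ι] {K L : Set (EuclideanSpace ℝ ι)} {s : ℝ}

theorem SymBody.image (h : SymBody K) (T : EuclideanSpace ℝ ι ≃ₗ[ℝ] EuclideanSpace ℝ ι) :
    SymBody (T '' K) := by
  have hT : Continuous T := T.toLinearMap.continuous_of_finiteDimensional
  refine ⟨h.compact.image hT, h.convex.linear_image T.toLinearMap, ?_, ?_⟩
  · obtain ⟨x, hx⟩ := h.interior_nonempty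
    refine ⟨T x, ?_⟩
    have h1 : T '' (interior K) ⊆ interior (T '' K) := by
      have hopen : IsOpen (T '' interior K) := by
        have := T.toContinuousLinearEquiv.toHomeomorph.isOpenMap _ (isOpen_interior (s := K))
        simpa using this
      exact interior_maximal (image_mono interior_subset) hopen
    exact h1 ⟨x, hx, rfl⟩
  · rintro _ ⟨x, hx, rfl⟩
    exact ⟨-x, h.symm x hx, by simp⟩

theorem supp_image (T : EuclideanSpace ℝ ι ≃ₗ[ℝ] EuclideanSpace ℝ ι) (K : Set (EuclideanSpace ℝ ι))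
    (u : EuclideanSpace ℝ ι) :
    supp (T '' K) u = supp K (LinearMap.adjoint T.toLinearMap u) := by
  unfold supp
  rw [image_image]
  congr 1
  apply image_congr
  intro x _
  exact (LinearMap.adjoint_inner_right T.toLinearMap x u).symm

theorem logComb_image (hK : SymBody K) (hL : SymBody L) (hs0 : 0 ≤ s) (hs1 : s ≤ 1)
    (T : EuclideanSpace ℝ ι ≃ₗ[ℝ] EuclideanSpace ℝ ι) :
    T '' (logComb s K L) ⊆ logComb s (T '' K) (T '' L) := by
  rintro _ ⟨x, hx, rfl⟩
  rw [mem_logComb_iff (hK.image T) (hL.image T) hs0 hs1]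
  rw [mem_logComb_iff hK hL hs0 hs1] at hx
  intro u
  rw [supp_image, supp_image]
  have h1 := hx (LinearMap.adjoint T.toLinearMap u)
  rw [LinearMap.adjoint_inner_right] at h1
  exact h1

theorem LogBM.image (hK : SymBody K) (hL : SymBody L) (hs0 : 0 ≤ s) (hs1 : s ≤ 1)
    (T : EuclideanSpace ℝ ι ≃ₗ[ℝ] EuclideanSpace ℝ ι) (h : LogBM s K L) :
    LogBM s (T '' K) (T '' L) := by
  unfold LogBM at *
  have hdet : ∀ A : Set (EuclideanSpace ℝ ι), volume (T '' A) =
      ENNReal.ofReal |LinearMap.det T.toLinearMap| * volume A := by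
    intro A
    exact Measure.addHaar_image_linearMap volume T.toLinearMap A
  rw [hdet K, hdet L]
  refine le_trans ?_ (measure_mono (logComb_image hK hL hs0 hs1 T))
  rw [hdet]
  have h1s : 0 ≤ 1 - s := by linarith
  rw [ENNReal.mul_rpow_of_nonneg _ _ h1s, ENNReal.mul_rpow_of_nonneg _ _ hs0]
  set c := ENNReal.ofReal |LinearMap.det T.toLinearMap| with hc
  have hcne : c ≠ 0 := by
    rw [hc, Ne, ENNReal.ofReal_eq_zero, not_le]
    exact abs_pos.2 (LinearEquiv.isUnit_det' T).ne_zero
  have hctop : c ≠ ∞ := ENNReal.ofReal_ne_top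
  have hcc : c ^ (1 - s) * c ^ s = c := by
    rw [← ENNReal.rpow_add _ _ hcne hctop]
    simp
  calc c ^ (1 - s) * volume K ^ (1 - s) * (c ^ s * volume L ^ s)
      = (c ^ (1 - s) * c ^ s) * (volume K ^ (1 - s) * volume L ^ s) := by ring
    _ ≤ c * volume (logComb s K L) := by
        rw [hcc]
        exact mul_le_mul_right h c

theorem logBM_self (hK : SymBody K) (hs0 : 0 ≤ s) (hs1 : s ≤ 1) : LogBM s K K := by
  unfold LogBM
  have h1s : 0 ≤ 1 - s := by linarith
  have h1 : volume K ^ (1 - s) * volume K ^ s = volume K := by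
    rw [← ENNReal.rpow_add_of_nonneg _ _ h1s hs0]
    simp
  rw [h1]
  apply measure_mono
  intro x hx u hu
  have h2 : supp K u ^ (1 - s) * supp K u ^ s = supp K u := by
    rw [← Real.rpow_add_of_nonneg (hK.supp_nonneg u) h1s hs0]
    simp
  rw [h2]
  exact hK.le_supp hx u

theorem logBM_zero (hK : SymBody K) : LogBM 0 K L := by
  unfold LogBM
  simp only [sub_zero, ENNReal.rpow_one, ENNReal.rpow_zero, mul_one]
  apply measure_mono
  intro x hx u hu
  simp only [sub_zero, Real.rpow_one, Real.rpow_zero, mul_one]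
  exact hK.le_supp hx u

theorem logBM_one (hL : SymBody L) : LogBM 1 K L := by
  unfold LogBM
  simp only [sub_self, ENNReal.rpow_one, ENNReal.rpow_zero, one_mul]
  apply measure_mono
  intro x hx u hu
  simp only [sub_self, Real.rpow_one, Real.rpow_zero, one_mul]
  exact hL.le_supp hx u

end

/-- Closure of the logarithmic Brunn-Minkowski inequality under unconditional composition. -/
theorem logBM_composition {n m : ℕ} {π : Fin n → Fin m} (hπ : Function.Surjective π)
    {C D : ∀ b : Fin m, Set (EuclideanSpace ℝ {j // π j = b})} (hC : ∀ b, SymBody (C b))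
    (hD : ∀ b, SymBody (D b)) {s : ℝ} (hs0 : 0 ≤ s) (hs1 : s ≤ 1)
    (h : ∀ b, LogBM s (C b) (D b))
    {U V : Set (Fin m → ℝ)} {K L : Set (EuclideanSpace ℝ (Fin n))} (hK : SymBody K)
    (hL : SymBody L)
    (hKU : ∀ x, x ∈ K ↔ (fun b => gauge (C b) (blk π b x)) ∈ U)
    (hLV : ∀ x, x ∈ L ↔ (fun b => gauge (D b) (blk π b x)) ∈ V) : LogBM s K L := by
  rcases hs0.eq_or_lt with h0 | h0
  · subst h0; exact logBM_zero hK
  · rcases hs1.eq_or_lt with h1 | h1
    · subst h1; exact logBM_one hL
    · exact logBM_compose hπ hC hD h0 h1 h hK hL hKU hLV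

end Vale.Agent.P227
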