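import Vale.Agent.P227.Incl

namespace Vale.Agent.P227

open MeasureTheory Set Filter
open scoped ENNReal NNReal Pointwise Topology

variable {n m : ℕ} {π : Fin n → Fin m}

/-- the densities are log-affine -/
theorem dens_rpow {c c' c'' : ℝ≥0∞} {s : ℝ} (hs0 : 0 < s) (hs1 : s < 1) {d : ℕ} (hd : 0 < d)
    (hc : c ^ (1 - s) * c' ^ s ≤ c'') (x y : ℝ) :
    dens c d x ^ (1 - s) * dens c' d y ^ s ≤ dens c'' d ((1 - s) * x + s * y) := by
  unfold dens
  have h1s : 0 ≤ 1 - s := by linarith
  rw [ENNReal.mul_rpow_of_nonneg _ _ h1s, ENNReal.mul_rpow_of_nonneg _ _ hs0.le]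
  have hdp : (0:ℝ) < d := by exact_mod_cast hd
  have e1 : ENNReal.ofReal (d * Real.exp (d * x)) ^ (1 - s) *
      ENNReal.ofReal (d * Real.exp (d * y)) ^ s =
      ENNReal.ofReal (d * Real.exp (d * ((1 - s) * x + s * y))) := by
    rw [ENNReal.ofReal_rpow_of_nonneg (by positivity) h1s,
      ENNReal.ofReal_rpow_of_nonneg (by positivity) hs0.le, ← ENNReal.ofReal_mul (by positivity)]
    congr 1
    rw [Real.mul_rpow hdp.le (Real.exp_pos _).le, Real.mul_rpow hdp.le (Real.exp_pos _).le,
      ← Real.exp_mul, ← Real.exp_mul]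
    have h2 : (d:ℝ) ^ (1 - s) * (d:ℝ) ^ s = d := by
      rw [← Real.rpow_add hdp]; simp
    calc (d:ℝ) ^ (1 - s) * Real.exp (d * x * (1 - s)) * ((d:ℝ) ^ s * Real.exp (d * y * s))
        = ((d:ℝ) ^ (1 - s) * (d:ℝ) ^ s) * (Real.exp (d * x * (1 - s)) * Real.exp (d * y * s)) := by
          ring
      _ = _ := by
          rw [h2, ← Real.exp_add]
          congr 2
          ring
  calc c ^ (1 - s) * ENNReal.ofReal (d * Real.exp (d * x)) ^ (1 - s) *
        (c' ^ s * ENNReal.ofReal (d * Real.exp (d * y)) ^ s)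
      = (c ^ (1 - s) * c' ^ s) * (ENNReal.ofReal (d * Real.exp (d * x)) ^ (1 - s) *
        ENNReal.ofReal (d * Real.exp (d * y)) ^ s) := by ring
    _ ≤ c'' * ENNReal.ofReal (d * Real.exp (d * ((1 - s) * x + s * y))) := by
        rw [e1]
        exact mul_le_mul_left hc _

theorem card_fiber_pos (hπ : Function.Surjective π) (b : Fin m) :
    0 < Fintype.card {j // π j = b} := by
  have := nonempty_fiber hπ b
  exact Fintype.card_pos

theorem pdens_rpow (hπ : Function.Surjective π)
    {C D M : ∀ b : Fin m, Set (EuclideanSpace ℝ {j // π j = b})} {s : ℝ} (hs0 : 0 < s)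
    (hs1 : s < 1) (h : ∀ b, volume (C b) ^ (1 - s) * volume (D b) ^ s ≤ volume (M b))
    (x y : Fin m → ℝ) :
    pdens C x ^ (1 - s) * pdens D y ^ s ≤ pdens M ((1 - s) • x + s • y) := by
  unfold pdens
  have h1s : 0 ≤ 1 - s := by linarith
  rw [← ENNReal.prod_rpow_of_nonneg h1s, ← ENNReal.prod_rpow_of_nonneg hs0.le,
    ← Finset.prod_mul_distrib]
  refine Finset.prod_le_prod' fun b _ => ?_
  exact dens_rpow hs0 hs1 (card_fiber_pos hπ b) (h b) _ _

theorem dens_le {c : ℝ≥0∞} {d : ℕ} {t R : ℝ} (h : t ≤ R) : dens c d t ≤ dens c d R := by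
  unfold dens
  refine mul_le_mul_right (ENNReal.ofReal_le_ofReal ?_) _
  have : (d:ℝ) * t ≤ d * R := mul_le_mul_of_nonneg_left h (Nat.cast_nonneg d)
  exact mul_le_mul_of_nonneg_left (Real.exp_le_exp.2 this) (Nat.cast_nonneg d)

/-- the truncated Prékopa-Leindler inequality -/
theorem pl_trunc (hπ : Function.Surjective π)
    {C D M : ∀ b : Fin m, Set (EuclideanSpace ℝ {j // π j = b})} (hC : ∀ b, SymBody (C b))
    (hD : ∀ b, SymBody (D b)) {s : ℝ} (hs0 : 0 < s)
    (hs1 : s < 1) (h : ∀ b, volume (C b) ^ (1 - s) * volume (D b) ^ s ≤ volume (M b))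
    {A B T : Set (Fin m → ℝ)} (hA : MeasurableSet A) (hB : MeasurableSet B) (hT : MeasurableSet T)
    (hABT : ∀ p ∈ A, ∀ q ∈ B, (1 - s) • p + s • q ∈ T) (R : ℝ) :
    (∫⁻ t in A ∩ Metric.closedBall 0 R, pdens C t) ^ (1 - s) *
      (∫⁻ t in B ∩ Metric.closedBall 0 R, pdens D t) ^ s ≤ ∫⁻ t in T, pdens M t := by
  have hAR : MeasurableSet (A ∩ Metric.closedBall 0 R) := hA.inter Metric.isClosed_closedBall.measurableSet
  have hBR : MeasurableSet (B ∩ Metric.closedBall 0 R) := hB.inter Metric.isClosed_closedBall.measurableSet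
  rw [← lintegral_indicator hAR, ← lintegral_indicator hBR, ← lintegral_indicator hT]
  have bound : ∀ {C : ∀ b : Fin m, Set (EuclideanSpace ℝ {j // π j = b})} (_ : ∀ b, SymBody (C b))
      (A : Set (Fin m → ℝ)), ∃ (c : ℝ≥0) (R' : ℝ), ∀ x,
      (A ∩ Metric.closedBall 0 R).indicator (pdens C) x ≤
        (Metric.closedBall (0 : Fin m → ℝ) R').indicator (fun _ => (c : ℝ≥0∞)) x := by
    intro C hC A
    have hfin : (∏ b, dens (volume (C b)) (Fintype.card {j // π j = b}) R) ≠ ∞ := by
      refine ENNReal.prod_ne_top fun b _ => ?_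
      exact ENNReal.mul_ne_top (hC b).compact.measure_lt_top.ne ENNReal.ofReal_ne_top
    refine ⟨(∏ b, dens (volume (C b)) (Fintype.card {j // π j = b}) R).toNNReal, R, fun x => ?_⟩
    by_cases hx : x ∈ A ∩ Metric.closedBall 0 R
    · rw [indicator_of_mem hx, indicator_of_mem hx.2, ENNReal.coe_toNNReal hfin]
      refine Finset.prod_le_prod' fun b _ => dens_le ?_
      have h1 := hx.2
      rw [mem_closedBall_zero_iff] at h1
      exact (le_abs_self _).trans ((norm_le_pi_norm x b).trans h1)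
    · rw [indicator_of_notMem hx]
      exact zero_le
  refine Vale.Agent.P074.pl_pi hs0 hs1 m ((measurable_pdens C).indicator hAR)
    ((measurable_pdens D).indicator hBR) ((measurable_pdens M).indicator hT)
    (bound hC A) (bound hD B) ?_
  intro x y
  by_cases hx : x ∈ A ∩ Metric.closedBall 0 R
  · by_cases hy : y ∈ B ∩ Metric.closedBall 0 R
    · rw [indicator_of_mem hx, indicator_of_mem hy, indicator_of_mem (hABT x hx.1 y hy.1)]
      exact pdens_rpow hπ hs0 hs1 h x y
    · rw [indicator_of_notMem hy, ENNReal.zero_rpow_of_pos hs0, mul_zero]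
      exact zero_le
  · rw [indicator_of_notMem hx, ENNReal.zero_rpow_of_pos (by linarith), zero_mul]
    exact zero_le

theorem tendsto_trunc (g : (Fin m → ℝ) → ℝ≥0∞) {A : Set (Fin m → ℝ)} (hA : MeasurableSet A) :
    Tendsto (fun N : ℕ => ∫⁻ t in A ∩ Metric.closedBall 0 (N:ℝ), g t) atTop
      (𝓝 (∫⁻ t in A, g t)) := by
  have hU : A = ⋃ N : ℕ, A ∩ Metric.closedBall 0 (N:ℝ) := by
    rw [← inter_iUnion]
    have : (⋃ N : ℕ, Metric.closedBall (0 : Fin m → ℝ) (N:ℝ)) = univ := by
      rw [eq_univ_iff_forall]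
      intro x
      obtain ⟨N, hN⟩ := exists_nat_ge ‖x‖
      exact mem_iUnion.2 ⟨N, by rwa [mem_closedBall_zero_iff]⟩
    rw [this, inter_univ]
  have hmono : Monotone fun N : ℕ => A ∩ Metric.closedBall (0 : Fin m → ℝ) (N:ℝ) := by
    intro a b hab
    exact inter_subset_inter_right _ (Metric.closedBall_subset_closedBall (by exact_mod_cast hab))
  have hmeas : ∀ N : ℕ, MeasurableSet (A ∩ Metric.closedBall (0 : Fin m → ℝ) (N:ℝ)) :=
    fun N => hA.inter Metric.isClosed_closedBall.measurableSet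
  have h1 := tendsto_measure_iUnion_atTop (μ := (volume : Measure (Fin m → ℝ)).withDensity g) hmono
  rw [← hU, withDensity_apply _ hA] at h1
  refine h1.congr fun N => ?_
  exact withDensity_apply _ (hmeas N)

/-- Closure of the logarithmic Brunn-Minkowski inequality under unconditional composition,
for `0 < s < 1`. -/
theorem logBM_compose (hπ : Function.Surjective π)
    {C D : ∀ b : Fin m, Set (EuclideanSpace ℝ {j // π j = b})} (hC : ∀ b, SymBody (C b))
    (hD : ∀ b, SymBody (D b)) {s : ℝ} (hs0 : 0 < s) (hs1 : s < 1)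
    (h : ∀ b, LogBM s (C b) (D b))
    {U V : Set (Fin m → ℝ)} {K L : Set (EuclideanSpace ℝ (Fin n))} (hK : SymBody K)
    (hL : SymBody L)
    (hKU : ∀ x, x ∈ K ↔ (fun b => gauge (C b) (blk π b x)) ∈ U)
    (hLV : ∀ x, x ∈ L ↔ (fun b => gauge (D b) (blk π b x)) ∈ V) : LogBM s K L := by
  have hM : ∀ b, SymBody (logComb s (C b) (D b)) :=
    fun b => symBody_logComb (hC b) (hD b) hs0.le hs1.le
  have hW : SymBody (logComb s K L) := symBody_logComb hK hL hs0.le hs1.le
  have hne : ∀ b, Nonempty {j // π j = b} := nonempty_fiber hπ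
  -- measurability of the sets of logarithmic radii
  have hmeasA : ∀ {C : ∀ b : Fin m, Set (EuclideanSpace ℝ {j // π j = b})}
      (_ : ∀ b, SymBody (C b)) {U : Set (Fin m → ℝ)} {K : Set (EuclideanSpace ℝ (Fin n))}
      (_ : SymBody K) (_ : ∀ x, x ∈ K ↔ (fun b => gauge (C b) (blk π b x)) ∈ U),
      MeasurableSet {t : Fin m → ℝ | (fun b => Real.exp (t b)) ∈ U} := by
    intro C hC U K hK hKU
    have hv : ∀ b, ∃ x, gauge (C b) x = 1 := by
      intro b
      have := hne b
      obtain ⟨x, hx, _⟩ := (hC b).exists_supp_gauge 0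
      exact ⟨x, hx⟩
    choose v hv using hv
    have : {t : Fin m → ℝ | (fun b => Real.exp (t b)) ∈ U} =
        (fun t : Fin m → ℝ => glue π (fun b => Real.exp (t b) • v b)) ⁻¹' K := by
      ext t
      rw [mem_preimage, hKU]
      simp only [mem_ofPred_eq]
      have : (fun b => gauge (C b) (blk π b (glue π fun b => Real.exp (t b) • v b))) =
          fun b => Real.exp (t b) := by
        funext b
        rw [blk_glue, gauge_smul_of_nonneg (Real.exp_pos _).le, hv, smul_eq_mul, mul_one]
      rw [this]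
    rw [this]
    refine hK.isClosed.measurableSet.preimage ?_
    apply Continuous.measurable
    apply (continuous_glue π).comp
    fun_prop
  -- the volume of a composed body
  have hvol : ∀ {C : ∀ b : Fin m, Set (EuclideanSpace ℝ {j // π j = b})}
      (_ : ∀ b, SymBody (C b)) {U : Set (Fin m → ℝ)} {K : Set (EuclideanSpace ℝ (Fin n))}
      (_ : SymBody K) (_ : ∀ x, x ∈ K ↔ (fun b => gauge (C b) (blk π b x)) ∈ U),
      volume K = ∫⁻ t in {t : Fin m → ℝ | (fun b => Real.exp (t b)) ∈ U}, pdens C t := by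
    intro C hC U K hK hKU
    rw [← volume_compose hπ hC (hmeasA hC hK hKU)]
    apply measure_congr
    filter_upwards [ae_blk_ne hπ] with x hx
    apply propext
    change x ∈ K ↔ (fun b => Real.exp (Real.log (gauge (C b) (blk π b x)))) ∈ U
    rw [hKU]
    have : (fun b => Real.exp (Real.log (gauge (C b) (blk π b x)))) =
        fun b => gauge (C b) (blk π b x) := by
      funext b
      exact Real.exp_log ((hC b).gauge_pos.2 (hx b))
    rw [this]
  set A := {t : Fin m → ℝ | (fun b => Real.exp (t b)) ∈ U} with hAdef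
  set B := {t : Fin m → ℝ | (fun b => Real.exp (t b)) ∈ V} with hBdef
  set T := goodSet π (fun b => logComb s (C b) (D b)) (logComb s K L) with hTdef
  have hAm : MeasurableSet A := hmeasA hC hK hKU
  have hBm : MeasurableSet B := hmeasA hD hL hLV
  have hTm : MeasurableSet T := (isClosed_goodSet hW.isClosed).measurableSet
  have hABT : ∀ p ∈ A, ∀ q ∈ B, (1 - s) • p + s • q ∈ T := fun p hp q hq =>
    goodSet_mem hπ hC hD hs0 hs1 hK hL hKU hLV hp hq
  -- lower bound for the volume of the logarithmic combination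
  have hWlow : ∫⁻ t in T, pdens (fun b => logComb s (C b) (D b)) t ≤ volume (logComb s K L) := by
    rw [← volume_compose hπ hM hTm]
    apply measure_mono_ae
    filter_upwards [ae_blk_ne hπ] with x hx
    intro hxT
    have hxT' : (fun b => Real.log (gauge (logComb s (C b) (D b)) (blk π b x))) ∈ T := hxT
    have hg : ∀ b, 0 < gauge (logComb s (C b) (D b)) (blk π b x) := fun b => (hM b).gauge_pos.2 (hx b)
    have h1 := hxT' (fun b => (gauge (logComb s (C b) (D b)) (blk π b x))⁻¹ • blk π b x) (by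
      intro b
      rw [← (hM b).gauge_le_one, gauge_smul_of_nonneg (inv_nonneg.2 (hg b).le), smul_eq_mul,
        inv_mul_cancel₀ (hg b).ne'])
    have h2 : (fun b => Real.exp (Real.log (gauge (logComb s (C b) (D b)) (blk π b x))) •
        ((gauge (logComb s (C b) (D b)) (blk π b x))⁻¹ • blk π b x)) = fun b => blk π b x := by
      funext b
      rw [Real.exp_log (hg b), smul_smul, mul_inv_cancel₀ (hg b).ne', one_smul]
    have h3 : glue π (fun b => blk π b x) ∈ logComb s K L := by
      rw [← h2]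
      exact h1
    rw [glue_blk] at h3
    exact h3
  -- pass to the limit
  have hlim : (∫⁻ t in A, pdens C t) ^ (1 - s) * (∫⁻ t in B, pdens D t) ^ s ≤
      ∫⁻ t in T, pdens (fun b => logComb s (C b) (D b)) t := by
    have h1 := (tendsto_trunc (pdens C) hAm)
    have h2 := (tendsto_trunc (pdens D) hBm)
    have h1' := ((ENNReal.continuous_rpow_const (y := 1 - s)).tendsto _).comp h1
    have h2' := ((ENNReal.continuous_rpow_const (y := s)).tendsto _).comp h2
    have hKfin : ∫⁻ t in A, pdens C t ≠ ∞ := by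
      rw [← hvol hC hK hKU]; exact hK.compact.measure_lt_top.ne
    have hLfin : ∫⁻ t in B, pdens D t ≠ ∞ := by
      rw [← hvol hD hL hLV]; exact hL.compact.measure_lt_top.ne
    have h3 := ENNReal.Tendsto.mul h1' (Or.inr (ENNReal.rpow_ne_top_of_nonneg hs0.le hLfin)) h2'
      (Or.inr (ENNReal.rpow_ne_top_of_nonneg (by linarith) hKfin))
    refine le_of_tendsto h3 (Eventually.of_forall fun N => ?_)
    exact pl_trunc hπ hC hD hs0 hs1 h hAm hBm hTm hABT N
  unfold LogBM
  rw [hvol hC hK hKU, hvol hD hL hLV]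
  exact hlim.trans hWlow

end Vale.Agent.P227
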