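import Vale.Agent.P227.Body
import Vale.Agent.P074.PL

namespace Vale.Agent.P227

open MeasureTheory Set
open scoped ENNReal Pointwise Topology

variable {ι : Type} [Fintype ι]

/-- the density of `log |x|_C` under Lebesgue measure -/
noncomputable def dens (c : ℝ≥0∞) (d : ℕ) (t : ℝ) : ℝ≥0∞ :=
  c * ENNReal.ofReal (d * Real.exp (d * t))

theorem measurable_dens (c : ℝ≥0∞) (d : ℕ) : Measurable (dens c d) := by
  unfold dens
  fun_prop

theorem withDensity_dens_Ioc (c : ℝ≥0∞) (d : ℕ) {a b : ℝ} (hab : a < b) :
    (volume : Measure ℝ).withDensity (dens c d) (Ioc a b) =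
      c * ENNReal.ofReal (Real.exp (d * b) - Real.exp (d * a)) := by
  rw [withDensity_apply _ measurableSet_Ioc]
  unfold dens
  rw [lintegral_const_mul _ (by fun_prop)]
  congr 1
  rw [← ofReal_integral_eq_lintegral_ofReal]
  · congr 1
    rw [← intervalIntegral.integral_of_le hab.le]
    have hderiv : ∀ x ∈ Set.uIcc a b, HasDerivAt (fun t : ℝ => Real.exp (d * t))
        (d * Real.exp (d * x)) x := by
      intro x _
      have h1 : HasDerivAt (fun t : ℝ => (d : ℝ) * t) (d : ℝ) x := by
        simpa using (hasDerivAt_id x).const_mul (d : ℝ)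
      have h2 := h1.exp
      rwa [mul_comm] at h2
    rw [intervalIntegral.integral_eq_sub_of_hasDerivAt hderiv]
    apply Continuous.intervalIntegrable
    fun_prop
  · apply Continuous.integrableOn_Ioc
    fun_prop
  · filter_upwards with t
    positivity

theorem mem_smul_iff {C : Set (EuclideanSpace ℝ ι)} (h : SymBody C) {r : ℝ} (hr : 0 < r)
    (x : EuclideanSpace ℝ ι) : x ∈ r • C ↔ gauge C x ≤ r := by
  rw [mem_smul_set_iff_inv_smul_mem₀ hr.ne', ← h.gauge_le_one,
    gauge_smul_of_nonneg (inv_nonneg.2 hr.le), smul_eq_mul, inv_mul_le_iff₀ hr, mul_one]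

theorem volume_smul (C : Set (EuclideanSpace ℝ ι)) {r : ℝ} (hr : 0 < r) :
    volume (r • C) = ENNReal.ofReal (r ^ Fintype.card ι) * volume C := by
  rw [Measure.addHaar_smul, finrank_euclideanSpace, abs_of_pos (pow_pos hr _)]

theorem map_logGauge [Nonempty ι] {C : Set (EuclideanSpace ℝ ι)} (h : SymBody C) :
    (volume : Measure (EuclideanSpace ℝ ι)).map (fun x => Real.log (gauge C x)) =
      (volume : Measure ℝ).withDensity (dens (volume C) (Fintype.card ι)) := by
  have hfin : volume C ≠ ∞ := h.compact.measure_lt_top.ne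
  have key : ∀ ⦃a b : ℝ⦄, a < b →
      (volume : Measure (EuclideanSpace ℝ ι)).map (fun x => Real.log (gauge C x)) (Ioc a b) =
        volume C * ENNReal.ofReal (Real.exp (Fintype.card ι * b) -
          Real.exp (Fintype.card ι * a)) := by
    intro a b hab
    have hmeas : Measurable (fun x => Real.log (gauge C x)) :=
      Real.measurable_log.comp h.continuous_gauge.measurable
    rw [Measure.map_apply hmeas measurableSet_Ioc]
    have hea : 0 < Real.exp a := Real.exp_pos a
    have heb : 0 < Real.exp b := Real.exp_pos b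
    have h1 : ((fun x => Real.log (gauge C x)) ⁻¹' Ioc a b : Set (EuclideanSpace ℝ ι)) =ᵐ[volume]
        ((Real.exp b • C) \ (Real.exp a • C) : Set (EuclideanSpace ℝ ι)) := by
      have h0 : ∀ᵐ x : EuclideanSpace ℝ ι, x ≠ 0 := by
        have := measure_singleton (μ := (volume : Measure (EuclideanSpace ℝ ι))) 0
        rw [ae_iff]
        simpa using this
      filter_upwards [h0] with x hx
      apply propext
      change (x ∈ (fun x => Real.log (gauge C x)) ⁻¹' Ioc a b) ↔
        (x ∈ (Real.exp b • C) \ (Real.exp a • C))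
      have hg := h.gauge_pos.2 hx
      rw [mem_preimage, mem_Ioc, mem_sdiff, mem_smul_iff h heb, mem_smul_iff h hea,
        Real.lt_log_iff_exp_lt hg, Real.log_le_iff_le_exp hg, not_le]
      exact and_comm
    rw [measure_congr h1]
    have hsub : Real.exp a • C ⊆ Real.exp b • C := by
      intro x hx
      rw [mem_smul_iff h hea] at hx
      rw [mem_smul_iff h heb]
      exact hx.trans (Real.exp_le_exp.2 hab.le)
    have hcl : IsCompact (Real.exp a • C) := h.compact.smul _
    rw [measure_sdiff hsub hcl.measurableSet.nullMeasurableSet hcl.measure_lt_top.ne,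
      volume_smul C heb, volume_smul C hea, ENNReal.ofReal_sub _ (Real.exp_pos _).le,
      ENNReal.mul_sub (fun _ _ => hfin), mul_comm (volume C), mul_comm (volume C),
      ← Real.exp_nat_mul, ← Real.exp_nat_mul]
  refine Measure.ext_of_Ioc' _ _ ?_ ?_
  · intro a b hab
    rw [key hab]
    exact ENNReal.mul_ne_top hfin ENNReal.ofReal_ne_top
  · intro a b hab
    rw [key hab, withDensity_dens_Ioc _ _ hab]

theorem lintegral_prod_fin : ∀ (d : ℕ) (F : Fin d → ℝ → ℝ≥0∞), (∀ i, Measurable (F i)) →
    ∫⁻ x : Fin d → ℝ, ∏ i, F i (x i) = ∏ i, ∫⁻ a, F i a := by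
  intro d
  induction d with
  | zero =>
    intro F _
    rw [Vale.Agent.P074.lintegral_fin_zero]
    simp
  | succ d ih =>
    intro F hF
    have hm : Measurable (fun x : Fin (d + 1) → ℝ => ∏ i, F i (x i)) :=
      Finset.measurable_fun_prod _ fun i _ => (hF i).comp (measurable_pi_apply i)
    rw [Vale.Agent.P074.lintegral_fin_succ hm, Fin.prod_univ_succ]
    simp only [Fin.prod_univ_succ, Fin.cons_zero, Fin.cons_succ]
    have h1 : ∀ a : ℝ, ∫⁻ v : Fin d → ℝ, F 0 a * ∏ i : Fin d, F i.succ (v i) =
        F 0 a * ∏ i : Fin d, ∫⁻ a, F i.succ a := by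
      intro a
      rw [lintegral_const_mul, ih (fun i => F i.succ) (fun i => hF _)]
      exact Finset.measurable_fun_prod _ fun i _ => (hF _).comp (measurable_pi_apply i)
    simp_rw [h1]
    rw [lintegral_mul_const _ (hF 0)]

theorem pi_withDensity {m : ℕ} (g : Fin m → ℝ → ℝ≥0∞) (hg : ∀ i, Measurable (g i))
    [∀ i, SigmaFinite ((volume : Measure ℝ).withDensity (g i))] :
    Measure.pi (fun i => (volume : Measure ℝ).withDensity (g i)) =
      (volume : Measure (Fin m → ℝ)).withDensity (fun t => ∏ i, g i (t i)) := by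
  apply Measure.pi_eq
  intro s hs
  rw [withDensity_apply _ (MeasurableSet.univ_pi hs), ← lintegral_indicator (MeasurableSet.univ_pi hs)]
  have h1 : (fun t : Fin m → ℝ => (univ.pi s).indicator (fun t => ∏ i, g i (t i)) t) =
      fun t => ∏ i, (s i).indicator (g i) (t i) := by
    funext t
    by_cases ht : t ∈ univ.pi s
    · rw [indicator_of_mem ht]
      refine Finset.prod_congr rfl fun i _ => ?_
      rw [indicator_of_mem (ht i (mem_univ i))]
    · rw [indicator_of_notMem ht]
      have : ∃ i, t i ∉ s i := by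
        by_contra hcon
        push Not at hcon
        exact ht fun i _ => hcon i
      obtain ⟨i, hi⟩ := this
      exact (Finset.prod_eq_zero (Finset.mem_univ i) (indicator_of_notMem hi _)).symm
  rw [h1, lintegral_prod_fin m _ fun i => (hg i).indicator (hs i)]
  refine Finset.prod_congr rfl fun i _ => ?_
  rw [lintegral_indicator (hs i), withDensity_apply _ (hs i)]

/-- gluing of the blocks -/
noncomputable def glue {n m : ℕ} (π : Fin n → Fin m)
    (y : ∀ b : Fin m, EuclideanSpace ℝ {j // π j = b}) : EuclideanSpace ℝ (Fin n) :=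
  WithLp.toLp 2 (fun j => y (π j) ⟨j, rfl⟩)

theorem blk_glue {n m : ℕ} (π : Fin n → Fin m)
    (y : ∀ b : Fin m, EuclideanSpace ℝ {j // π j = b}) (b : Fin m) :
    blk π b (glue π y) = y b := by
  ext ⟨j, hj⟩
  subst hj
  rfl

theorem glue_blk {n m : ℕ} (π : Fin n → Fin m) (x : EuclideanSpace ℝ (Fin n)) :
    glue π (fun b => blk π b x) = x := by
  ext j
  rfl

theorem continuous_glue {n m : ℕ} (π : Fin n → Fin m) : Continuous (glue π) := by
  unfold glue
  fun_prop

theorem continuous_blk {n m : ℕ} (π : Fin n → Fin m) (b : Fin m) : Continuous (blk π b) := by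
  unfold blk
  fun_prop

theorem map_glue {n m : ℕ} (π : Fin n → Fin m) :
    (Measure.pi fun b : Fin m => (volume : Measure (EuclideanSpace ℝ {j // π j = b}))).map
      (glue π) = (volume : Measure (EuclideanSpace ℝ (Fin n))) := by
  have hofLp := PiLp.volume_preserving_ofLp (Fin n)
  have hinj : Function.Injective (fun μ : Measure (EuclideanSpace ℝ (Fin n)) =>
      μ.map (WithLp.ofLp : EuclideanSpace ℝ (Fin n) → (Fin n → ℝ))) := by
    intro μ ν hμν
    have h1 : (μ.map WithLp.ofLp).map (WithLp.toLp 2 : (Fin n → ℝ) → EuclideanSpace ℝ (Fin n)) =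
        (ν.map WithLp.ofLp).map (WithLp.toLp 2) := by
      simp only at hμν
      rw [hμν]
    rw [Measure.map_map (by fun_prop) (by fun_prop), Measure.map_map (by fun_prop) (by fun_prop)] at h1
    have h2 : (WithLp.toLp 2 : (Fin n → ℝ) → EuclideanSpace ℝ (Fin n)) ∘ WithLp.ofLp = id := by
      funext x; simp
    rwa [h2, Measure.map_id, Measure.map_id] at h1
  apply hinj
  change Measure.map WithLp.ofLp _ = Measure.map WithLp.ofLp _
  rw [hofLp.map_eq, Measure.map_map (by fun_prop) (continuous_glue π).measurable]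
  symm
  apply Measure.pi_eq
  intro s hs
  rw [Measure.map_apply ((by fun_prop : Measurable (WithLp.ofLp :
    EuclideanSpace ℝ (Fin n) → (Fin n → ℝ))).comp (continuous_glue π).measurable)
    (MeasurableSet.univ_pi hs)]
  have h1 : (WithLp.ofLp ∘ glue π ⁻¹' univ.pi s) =
      univ.pi (fun b : Fin m => {y : EuclideanSpace ℝ {j // π j = b} | ∀ j, y j ∈ s j.1}) := by
    ext y
    simp only [mem_preimage, Function.comp_apply, mem_univ_pi, glue, mem_ofPred_eq]
    constructor
    · rintro h b ⟨j, hj⟩
      subst hj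
      exact h j
    · intro h j
      exact h (π j) ⟨j, rfl⟩
  rw [h1, Measure.pi_pi]
  have h2 : ∀ b : Fin m, volume {y : EuclideanSpace ℝ {j // π j = b} | ∀ j, y j ∈ s j.1} =
      ∏ j : {j // π j = b}, volume (s j.1) := by
    intro b
    have h3 := (PiLp.volume_preserving_ofLp {j // π j = b}).measure_preimage
      (MeasurableSet.univ_pi (fun j : {j // π j = b} => hs j.1)).nullMeasurableSet
    rw [volume_pi_pi] at h3
    rw [← h3]
    congr 1
    ext y
    simp
  simp_rw [h2]
  exact Fintype.prod_fiberwise π (fun j => volume (s j))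

end Vale.Agent.P227
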