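import Vale.Agent.P227.Polar

namespace Vale.Agent.P227

open MeasureTheory Set
open scoped ENNReal Pointwise Topology

variable {n m : ℕ} {π : Fin n → Fin m}

theorem sigmaFinite_dens {c : ℝ≥0∞} (hc : c ≠ ∞) (d : ℕ) :
    SigmaFinite ((volume : Measure ℝ).withDensity (dens c d)) := by
  apply SigmaFinite.withDensity_of_ne_top
  filter_upwards with t
  exact ENNReal.mul_ne_top hc ENNReal.ofReal_ne_top

theorem nonempty_fiber (hπ : Function.Surjective π) (b : Fin m) : Nonempty {j // π j = b} := by
  obtain ⟨j, hj⟩ := hπ b
  exact ⟨⟨j, hj⟩⟩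

/-- the product density -/
noncomputable def pdens (C : ∀ b : Fin m, Set (EuclideanSpace ℝ {j // π j = b}))
    (t : Fin m → ℝ) : ℝ≥0∞ :=
  ∏ b, dens (volume (C b)) (Fintype.card {j // π j = b}) (t b)

theorem measurable_pdens (C : ∀ b : Fin m, Set (EuclideanSpace ℝ {j // π j = b})) :
    Measurable (pdens C) :=
  Finset.measurable_fun_prod _ fun b _ => (measurable_dens _ _).comp (measurable_pi_apply b)

theorem measurable_logs {C : ∀ b : Fin m, Set (EuclideanSpace ℝ {j // π j = b})}
    (hC : ∀ b, SymBody (C b)) :
    Measurable (fun (x : EuclideanSpace ℝ (Fin n)) (b : Fin m) =>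
      Real.log (gauge (C b) (blk π b x))) := by
  refine measurable_pi_lambda _ fun b => ?_
  exact Real.measurable_log.comp ((hC b).continuous_gauge.measurable.comp
    (continuous_blk π b).measurable)

theorem volume_compose (hπ : Function.Surjective π)
    {C : ∀ b : Fin m, Set (EuclideanSpace ℝ {j // π j = b})} (hC : ∀ b, SymBody (C b))
    {T : Set (Fin m → ℝ)} (hT : MeasurableSet T) :
    volume {x : EuclideanSpace ℝ (Fin n) |
      (fun b => Real.log (gauge (C b) (blk π b x))) ∈ T} = ∫⁻ t in T, pdens C t := by
  haveI : ∀ b, Nonempty {j // π j = b} := nonempty_fiber hπ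
  have hfin : ∀ b, volume (C b) ≠ ∞ := fun b => (hC b).compact.measure_lt_top.ne
  haveI : ∀ b, SigmaFinite ((volume : Measure ℝ).withDensity
      (dens (volume (C b)) (Fintype.card {j // π j = b}))) :=
    fun b => sigmaFinite_dens (hfin b) _
  have hA : MeasurableSet {x : EuclideanSpace ℝ (Fin n) |
      (fun b => Real.log (gauge (C b) (blk π b x))) ∈ T} := measurable_logs hC hT
  rw [← map_glue π, Measure.map_apply (continuous_glue π).measurable hA]
  have h1 : (glue π ⁻¹' {x : EuclideanSpace ℝ (Fin n) |
      (fun b => Real.log (gauge (C b) (blk π b x))) ∈ T}) =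
      (fun (y : ∀ b : Fin m, EuclideanSpace ℝ {j // π j = b}) (b : Fin m) =>
        Real.log (gauge (C b) (y b))) ⁻¹' T := by
    ext y
    simp only [mem_preimage, mem_ofPred_eq, blk_glue]
  have hmeas : ∀ b : Fin m, Measurable (fun y : EuclideanSpace ℝ {j // π j = b} =>
      Real.log (gauge (C b) y)) :=
    fun b => Real.measurable_log.comp (hC b).continuous_gauge.measurable
  have hmeas' : Measurable (fun (y : ∀ b : Fin m, EuclideanSpace ℝ {j // π j = b}) (b : Fin m) =>
        Real.log (gauge (C b) (y b))) :=
    measurable_pi_lambda _ fun b => (hmeas b).comp (measurable_pi_apply b)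
  rw [h1, ← Measure.map_apply hmeas' hT]
  haveI : ∀ b, SigmaFinite ((volume : Measure (EuclideanSpace ℝ {j // π j = b})).map
      (fun y => Real.log (gauge (C b) y))) := by
    intro b
    rw [map_logGauge (hC b)]
    infer_instance
  have h2 : Measure.map (fun (y : ∀ b : Fin m, EuclideanSpace ℝ {j // π j = b}) (b : Fin m) =>
        Real.log (gauge (C b) (y b))) (Measure.pi fun b => volume) =
      Measure.pi fun b => (volume : Measure (EuclideanSpace ℝ {j // π j = b})).map
        (fun y => Real.log (gauge (C b) y)) :=
    Measure.pi_map_pi fun b => (hmeas b).aemeasurable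
  rw [h2]
  have h3 : (fun b : Fin m => (volume : Measure (EuclideanSpace ℝ {j // π j = b})).map
        (fun y => Real.log (gauge (C b) y))) = fun b => (volume : Measure ℝ).withDensity
      (dens (volume (C b)) (Fintype.card {j // π j = b})) := by
    funext b
    exact map_logGauge (hC b)
  have h4 : (Measure.pi fun b : Fin m => (volume : Measure (EuclideanSpace ℝ {j // π j = b})).map
        (fun y => Real.log (gauge (C b) y))) = Measure.pi fun b => (volume : Measure ℝ).withDensity
      (dens (volume (C b)) (Fintype.card {j // π j = b})) := by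
    rw [h3]
  rw [h4, pi_withDensity _ fun b => measurable_dens _ _, withDensity_apply _ hT]
  rfl

theorem ae_blk_ne (hπ : Function.Surjective π) :
    ∀ᵐ x : EuclideanSpace ℝ (Fin n), ∀ b, blk π b x ≠ 0 := by
  haveI : ∀ b, Nonempty {j // π j = b} := nonempty_fiber hπ
  rw [ae_all_iff]
  intro b
  rw [← map_glue π, ae_map_iff (continuous_glue π).measurable.aemeasurable]
  · simp only [blk_glue]
    exact Measure.ae_eval_ne (μ := fun b : Fin m =>
      (volume : Measure (EuclideanSpace ℝ {j // π j = b}))) b 0
  · exact (isOpen_compl_singleton.preimage (continuous_blk π b)).measurableSet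

end Vale.Agent.P227
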